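import Vale.Agent.Lib.P235.K3m

namespace Vale.Agent.Results.P235.A_treewidth3_lower

open Vale.Agent.Lib.P235

/-- For every `Γ < (3 + √5) / 2` there is a finite connected graph of treewidth at most `3` with
positive edge lengths whose shortest-path metric has no embedding into any `L_1(Ω, μ)` with
distortion at most `Γ`. -/
theorem result.{v} (Γ : ℝ) (hΓ : Γ < (3 + Real.sqrt 5) / 2) :
    ∃ (V : Type) (_ : Fintype V) (G : SimpleGraph V) (ℓ : Sym2 V → ℝ),
      G.Connected ∧ TreewidthLE G 3 ∧ (∀ e ∈ G.edgeSet, 0 < ℓ e) ∧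
        ¬ EmbedsL1.{0, v} (pathMetric G ℓ) Γ := by
  have ha1 := aK_lower
  have hC : max Γ 0 < aK := max_lt hΓ (by linarith)
  obtain ⟨N, hN, hval⟩ := exists_good_net hC
  obtain ⟨D, -, -⟩ := hN.tree
  refine ⟨N.X ⊕ Bool, inferInstance, N.G, N.len, hN.conn, D.treewidthLE, hN.len_pos, ?_⟩
  intro hemb
  refine hN.not_embeds.{v} (le_max_right Γ 0) hval ?_
  obtain ⟨Ω, mΩ, μ, f, hf⟩ := hemb
  refine ⟨Ω, mΩ, μ, f, fun x y => ⟨(hf x y).1, (hf x y).2.trans ?_⟩⟩
  exact mul_le_mul_of_nonneg_right (le_max_left _ _) (pathMetric_nonneg _ hN.len_pos _ _)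

end Vale.Agent.Results.P235.A_treewidth3_lower
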